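import Vale.Agent.Lib.P335.Defs

/-!
# P335: the switch chain, defined literally by the three-stage procedure of the problem
-/

namespace P335
namespace Lit

open Finset Classical

/-- `F` is a perfect matching of the complete graph on the vertex set `S`: a set of edges
(non-loops with both ends in `S`) such that every vertex of `S` lies in exactly one edge of `F` -/
def IsPM {n : ℕ} (S : Finset (Fin n)) (F : Finset (Sym2 (Fin n))) : Prop :=
  (∀ z ∈ F, ¬ z.IsDiag ∧ ∀ v ∈ z, v ∈ S) ∧ ∀ v ∈ S, ∃! z, z ∈ F ∧ v ∈ z

/-- the set of perfect matchings of the complete graph on `S` -/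
noncomputable def PM {n : ℕ} (S : Finset (Fin n)) : Finset (Finset (Sym2 (Fin n))) :=
  univ.filter (IsPM S)

/-- the edge set after the attempted move `(F, F')`: if all edges of `F` are present and all edges
of `F'` are absent, replace `F` by `F'`, otherwise stay put -/
noncomputable def target {n : ℕ} (G : SimpleGraph (Fin n)) (F F' : Finset (Sym2 (Fin n))) :
    Set (Sym2 (Fin n)) :=
  if (∀ z ∈ F, z ∈ G.edgeSet) ∧ (∀ z ∈ F', z ∉ G.edgeSet) then (G.edgeSet \ ↑F) ∪ ↑F'
  else G.edgeSet

/-- the switch chain: with probability `1/2` stay put; otherwise choose a `4`-element set `S`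
uniformly, then choose uniformly one of the six ordered pairs `(F, F')` of distinct perfect
matchings of the complete graph on `S`, and attempt the move `(F, F')` -/
noncomputable def kernel (n : ℕ) (d : Fin n → ℕ) :
    Matrix (Realization n d) (Realization n d) ℝ :=
  fun G G' =>
    (1 / 2) * (if G' = G then 1 else 0)
      + (1 / 2) * ∑ S ∈ (univ : Finset (Fin n)).powersetCard 4, (1 / (n.choose 4 : ℝ)) *
          ∑ p ∈ (PM S).offDiag, (1 / 6) * (if G'.1.edgeSet = target G.1 p.1 p.2 then 1 else 0)

end Lit
end P335
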