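import Vale.Agent.Lib.P335.Lit.PM
import Vale.Agent.Lib.P335.GConn
import Vale.Agent.Lib.P335.Chain

/-!
# P335, literal chain: the kernel of the three-stage procedure is `switchChain`
-/

namespace P335
namespace Lit

open Finset Classical

variable {n : ℕ}

theorem swG_edgeSet {G : SimpleGraph (Fin n)} {a b c e : Fin n} (h : GConn.Valid G a b c e) :
    (GConn.swG G a b c e).edgeSet = (G.edgeSet \ {s(a, b), s(c, e)}) ∪ {s(a, c), s(b, e)} := by
  obtain ⟨h1, h2, h3, h4, h5, h6, h7, h8, h9, h10⟩ := h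
  ext z
  induction z using Sym2.ind with
  | _ x y =>
    simp only [SimpleGraph.mem_edgeSet, GConn.swG_adj, Set.mem_union, Set.mem_sdiff,
      Set.mem_insert_iff, Set.mem_singleton_iff, not_or]
    constructor
    · rintro (h | ⟨_, h⟩)
      · exact Or.inl h
      · exact Or.inr h
    · rintro (h | h)
      · exact Or.inl h
      · refine Or.inr ⟨?_, h⟩
        rcases h with h | h
        · exact GConn.ne_of_eq h h2
        · exact GConn.ne_of_eq h h5

/-- the condition of the move for a labelled pair of matchings -/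
theorem cond_iff (G : SimpleGraph (Fin n)) (a b c e : Fin n) :
    ((∀ z ∈ ({s(a, b), s(c, e)} : Finset (Sym2 (Fin n))), z ∈ G.edgeSet) ∧
      (∀ z ∈ ({s(a, c), s(b, e)} : Finset (Sym2 (Fin n))), z ∉ G.edgeSet)) ↔
    (G.Adj a b ∧ G.Adj c e ∧ ¬ G.Adj a c ∧ ¬ G.Adj b e) := by
  simp only [Finset.mem_insert, Finset.mem_singleton, forall_eq_or_imp, forall_eq,
    SimpleGraph.mem_edgeSet]
  tauto

theorem target_labelled {G : SimpleGraph (Fin n)} {a b c e : Fin n}
    (h : G.Adj a b ∧ G.Adj c e ∧ ¬ G.Adj a c ∧ ¬ G.Adj b e) :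
    target G {s(a, b), s(c, e)} {s(a, c), s(b, e)}
      = (G.edgeSet \ {s(a, b), s(c, e)}) ∪ {s(a, c), s(b, e)} := by
  unfold target
  rw [if_pos ((cond_iff G a b c e).2 h)]
  simp

theorem target_of_not {G : SimpleGraph (Fin n)} {F F' : Finset (Sym2 (Fin n))}
    (h : ¬ ((∀ z ∈ F, z ∈ G.edgeSet) ∧ (∀ z ∈ F', z ∉ G.edgeSet))) :
    target G F F' = G.edgeSet := by
  unfold target
  rw [if_neg h]

theorem mem_offDiag_PM {S : Finset (Fin n)} {p : Finset (Sym2 (Fin n)) × Finset (Sym2 (Fin n))} :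
    p ∈ (PM S).offDiag ↔ IsPM S p.1 ∧ IsPM S p.2 ∧ p.1 ≠ p.2 := by
  rw [Finset.mem_offDiag, PM, Finset.mem_filter, Finset.mem_filter]
  simp

/-- every attempted move leads to exactly one element of `Ω_d` -/
theorem exists_target (d : Fin n → ℕ) (G : Realization n d) {S : Finset (Fin n)}
    (hS : S.card = 4) {p : Finset (Sym2 (Fin n)) × Finset (Sym2 (Fin n))}
    (hp : p ∈ (PM S).offDiag) :
    ∃ G0 : Realization n d, G0.1.edgeSet = target G.1 p.1 p.2 := by
  obtain ⟨hF, hF', hne⟩ := mem_offDiag_PM.1 hp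
  by_cases hc : (∀ z ∈ p.1, z ∈ G.1.edgeSet) ∧ (∀ z ∈ p.2, z ∉ G.1.edgeSet)
  · obtain ⟨a, b, c, e, hD, _, h1, h2⟩ := exists_labelling hS hF hF' hne
    rw [h1, h2] at hc ⊢
    have hc' := (cond_iff G.1 a b c e).1 hc
    obtain ⟨hab, hac, hae, hbc, hbe, hce⟩ := hD
    have hv : GConn.Valid G.1 a b c e :=
      ⟨hab, hac, hae, hbc, hbe, hce, hc'.1, hc'.2.1, hc'.2.2.1, hc'.2.2.2⟩
    refine ⟨⟨GConn.swG G.1 a b c e, fun v => ?_⟩, ?_⟩
    · rw [GConn.degree_swG hv, G.2 v]
    · rw [target_labelled hc']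
      exact swG_edgeSet hv
  · exact ⟨G, (target_of_not hc).symm⟩

theorem sum_target (d : Fin n → ℕ) (G : Realization n d) {S : Finset (Fin n)}
    (hS : S.card = 4) {p : Finset (Sym2 (Fin n)) × Finset (Sym2 (Fin n))}
    (hp : p ∈ (PM S).offDiag) :
    ∑ G' : Realization n d, (if G'.1.edgeSet = target G.1 p.1 p.2 then (1 : ℝ) else 0) = 1 := by
  obtain ⟨G0, h0⟩ := exists_target d G hS hp
  have : ∀ G' : Realization n d, (G'.1.edgeSet = target G.1 p.1 p.2) ↔ G' = G0 := by
    intro G'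
    rw [← h0]
    constructor
    · intro h
      exact Subtype.ext (SimpleGraph.edgeSet_inj.1 h)
    · rintro rfl
      rfl
  simp only [this]
  simp

/-- a successful move is a switch -/
theorem isSwitch_of_target {G G' : SimpleGraph (Fin n)} (hne : G' ≠ G) {S : Finset (Fin n)}
    (hS : S.card = 4) {p : Finset (Sym2 (Fin n)) × Finset (Sym2 (Fin n))}
    (hp : p ∈ (PM S).offDiag) (h : G'.edgeSet = target G p.1 p.2) : IsSwitch G G' := by
  obtain ⟨hF, hF', hne'⟩ := mem_offDiag_PM.1 hp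
  by_cases hc : (∀ z ∈ p.1, z ∈ G.edgeSet) ∧ (∀ z ∈ p.2, z ∉ G.edgeSet)
  · obtain ⟨a, b, c, e, hD, _, h1, h2⟩ := exists_labelling hS hF hF' hne'
    rw [h1, h2] at hc h
    have hc' := (cond_iff G a b c e).1 hc
    obtain ⟨hab, hac, hae, hbc, hbe, hce⟩ := hD
    rw [target_labelled hc'] at h
    exact ⟨a, b, c, e, hab, hac, hae, hbc, hbe, hce, hc'.1, hc'.2.1, hc'.2.2.1, hc'.2.2.2, h⟩
  · rw [target_of_not hc] at h
    exact absurd (SimpleGraph.edgeSet_inj.1 h) hne

/-- the triple `(S, F, F')` is determined by a successful move -/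
theorem triple_unique {G G' : SimpleGraph (Fin n)} (hne : G' ≠ G) {S : Finset (Fin n)}
    {p : Finset (Sym2 (Fin n)) × Finset (Sym2 (Fin n))}
    (hp : p ∈ (PM S).offDiag) (h : G'.edgeSet = target G p.1 p.2) :
    (∀ z, z ∈ p.1 ↔ z ∈ G.edgeSet ∧ z ∉ G'.edgeSet) ∧
    (∀ z, z ∈ p.2 ↔ z ∈ G'.edgeSet ∧ z ∉ G.edgeSet) ∧
    (∀ v, v ∈ S ↔ ∃ z ∈ p.1, v ∈ z) := by
  obtain ⟨hF, hF', hne'⟩ := mem_offDiag_PM.1 hp
  by_cases hc : (∀ z ∈ p.1, z ∈ G.edgeSet) ∧ (∀ z ∈ p.2, z ∉ G.edgeSet)
  · have ht : target G p.1 p.2 = (G.edgeSet \ ↑p.1) ∪ ↑p.2 := by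
      unfold target
      rw [if_pos hc]
    rw [ht] at h
    have hm : ∀ z, z ∈ G'.edgeSet ↔ (z ∈ G.edgeSet ∧ z ∉ p.1) ∨ z ∈ p.2 := by
      intro z
      rw [h]
      simp
    refine ⟨fun z => ?_, fun z => ?_, fun v => ?_⟩
    · rw [hm]
      have a1 := hc.1 z
      have a2 := hc.2 z
      tauto
    · rw [hm]
      have a1 := hc.1 z
      have a2 := hc.2 z
      tauto
    · constructor
      · intro hv
        obtain ⟨z, ⟨hz, hvz⟩, _⟩ := hF.2 v hv
        exact ⟨z, hz, hvz⟩
      · rintro ⟨z, hz, hvz⟩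
        exact (hF.1 z hz).2 v hvz
  · rw [target_of_not hc] at h
    exact absurd (SimpleGraph.edgeSet_inj.1 h) hne

/-- number of triples `(S, F, F')` producing `G'` from `G ≠ G'` -/
theorem sum_triples {G G' : SimpleGraph (Fin n)} (hne : G' ≠ G) :
    ∑ S ∈ (univ : Finset (Fin n)).powersetCard 4, ∑ p ∈ (PM S).offDiag,
        (if G'.edgeSet = target G p.1 p.2 then (1 : ℝ) else 0)
      = if IsSwitch G G' then 1 else 0 := by
  by_cases hsw : IsSwitch G G'
  · rw [if_pos hsw]
    obtain ⟨a, b, c, e, hab, hac, hae, hbc, hbe, hce, h1, h2, h3, h4, hE⟩ := hsw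
    have hD : D4 a b c e := ⟨hab, hac, hae, hbc, hbe, hce⟩
    obtain ⟨S0, hS0⟩ : ∃ S0 : Finset (Fin n), S0 = {a, b, c, e} := ⟨_, rfl⟩
    have hS0m : ∀ v, v ∈ S0 ↔ v = a ∨ v = b ∨ v = c ∨ v = e := fun v => by rw [hS0]; simp
    have hS0c : S0.card = 4 := by
      rw [hS0, Finset.card_insert_of_notMem, Finset.card_insert_of_notMem,
        Finset.card_insert_of_notMem, Finset.card_singleton]
      · simpa using hce
      · simp only [Finset.mem_insert, Finset.mem_singleton, not_or]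
        exact ⟨hbc, hbe⟩
      · simp only [Finset.mem_insert, Finset.mem_singleton, not_or]
        exact ⟨hab, hac, hae⟩
    obtain ⟨p0, hp0⟩ : ∃ p0 : Finset (Sym2 (Fin n)) × Finset (Sym2 (Fin n)),
        p0 = ({s(a, b), s(c, e)}, {s(a, c), s(b, e)}) := ⟨_, rfl⟩
    have hp0m : p0 ∈ (PM S0).offDiag := by
      rw [mem_offDiag_PM, hp0]
      refine ⟨isPM_pair hD hS0m, ?_, pair_ne hD⟩
      exact isPM_pair ⟨hac, hab, hae, hbc.symm, hce, hbe⟩ (fun v => by rw [hS0m]; tauto)
    have hp0t : G'.edgeSet = target G p0.1 p0.2 := by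
      rw [hp0, target_labelled ⟨h1, h2, h3, h4⟩, hE]
    have u0 := triple_unique hne hp0m hp0t
    have huniq : ∀ S, ∀ p ∈ (PM S).offDiag, G'.edgeSet = target G p.1 p.2 → S = S0 ∧ p = p0 := by
      intro S p hp ht
      have u := triple_unique hne hp ht
      have e1 : p.1 = p0.1 := by
        ext z; rw [u.1, u0.1]
      have e2 : p.2 = p0.2 := by
        ext z; rw [u.2.1, u0.2.1]
      refine ⟨?_, Prod.ext e1 e2⟩
      ext v
      rw [u.2.2, u0.2.2, e1]
    rw [Finset.sum_eq_single S0]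
    · rw [Finset.sum_eq_single p0]
      · rw [if_pos hp0t]
      · intro p hp hpne
        rw [if_neg]
        intro ht
        exact hpne (huniq S0 p hp ht).2
      · intro h
        exact absurd hp0m h
    · intro S _ hSne
      refine Finset.sum_eq_zero fun p hp => ?_
      rw [if_neg]
      intro ht
      exact hSne (huniq S p hp ht).1
    · intro h
      exfalso
      apply h
      rw [Finset.mem_powersetCard]
      exact ⟨Finset.subset_univ _, hS0c⟩
  · rw [if_neg hsw]
    refine Finset.sum_eq_zero fun S hS => Finset.sum_eq_zero fun p hp => ?_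
    rw [if_neg]
    intro ht
    exact hsw (isSwitch_of_target hne (Finset.mem_powersetCard.1 hS).2 hp ht)

theorem kernel_off (d : Fin n → ℕ) {G G' : Realization n d} (hne : G' ≠ G) :
    kernel n d G G' = switchChain n d G G' := by
  have hne' : G'.1 ≠ G.1 := fun h => hne (Subtype.ext h)
  have h := sum_triples hne'
  unfold kernel switchChain
  rw [if_neg hne, if_neg (Ne.symm hne)]
  have e : ∑ S ∈ (univ : Finset (Fin n)).powersetCard 4, (1 / (n.choose 4 : ℝ)) *
        ∑ p ∈ (PM S).offDiag, (1 / 6) * (if G'.1.edgeSet = target G.1 p.1 p.2 then (1 : ℝ) else 0)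
      = (1 / (n.choose 4 : ℝ)) * ((1 / 6) *
        ∑ S ∈ (univ : Finset (Fin n)).powersetCard 4, ∑ p ∈ (PM S).offDiag,
          (if G'.1.edgeSet = target G.1 p.1 p.2 then (1 : ℝ) else 0)) := by
    simp only [Finset.mul_sum]
  rw [e, h]
  split_ifs
  · field_simp
    ring
  · simp

theorem kernel_row_sum (hn : 4 ≤ n) (d : Fin n → ℕ) (G : Realization n d) :
    ∑ G', kernel n d G G' = 1 := by
  have hC : (n.choose 4 : ℝ) ≠ 0 := by
    have := Nat.choose_pos hn
    positivity
  unfold kernel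
  rw [Finset.sum_add_distrib, ← Finset.mul_sum, ← Finset.mul_sum, Finset.sum_comm]
  have h1 : ∑ G' : Realization n d, (if G' = G then (1 : ℝ) else 0) = 1 := by simp
  have h2 : ∀ S ∈ (univ : Finset (Fin n)).powersetCard 4,
      ∑ G' : Realization n d, (1 / (n.choose 4 : ℝ)) *
        ∑ p ∈ (PM S).offDiag, (1 / 6) * (if G'.1.edgeSet = target G.1 p.1 p.2 then (1 : ℝ) else 0)
      = 1 / (n.choose 4 : ℝ) := by
    intro S hS
    have hS4 := (Finset.mem_powersetCard.1 hS).2
    rw [← Finset.mul_sum, Finset.sum_comm]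
    have h3 : ∀ p ∈ (PM S).offDiag, ∑ G' : Realization n d,
        (1 / 6) * (if G'.1.edgeSet = target G.1 p.1 p.2 then (1 : ℝ) else 0) = 1 / 6 := by
      intro p hp
      rw [← Finset.mul_sum, sum_target d G hS4 hp, mul_one]
    rw [Finset.sum_congr rfl h3, Finset.sum_const, card_offDiag_PM hS4]
    norm_num
  rw [h1, Finset.sum_congr rfl h2, Finset.sum_const, Finset.card_powersetCard, Finset.card_univ,
    Fintype.card_fin, nsmul_eq_mul]
  field_simp
  norm_num

/-- the kernel of the three-stage procedure is the matrix `switchChain` -/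
theorem kernel_eq (hn : 4 ≤ n) (d : Fin n → ℕ) : kernel n d = switchChain n d := by
  ext G G'
  by_cases h : G' = G
  · subst h
    have h1 := kernel_row_sum hn d G'
    have h2 := switchChain_row_sum d G'
    rw [← Finset.add_sum_erase univ _ (Finset.mem_univ G')] at h1 h2
    have h3 : ∑ x ∈ univ.erase G', kernel n d G' x = ∑ x ∈ univ.erase G', switchChain n d G' x :=
      Finset.sum_congr rfl fun x hx => kernel_off d (Finset.ne_of_mem_erase hx)
    linarith
  · exact kernel_off d h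

theorem kernel_nonneg (d : Fin n → ℕ) (G G' : Realization n d) : 0 ≤ kernel n d G G' := by
  unfold kernel
  refine add_nonneg (mul_nonneg (by norm_num) (by split_ifs <;> norm_num))
    (mul_nonneg (by norm_num) (Finset.sum_nonneg fun S _ => mul_nonneg (by positivity)
      (Finset.sum_nonneg fun p _ => mul_nonneg (by norm_num) (by split_ifs <;> norm_num))))

end Lit
end P335
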