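import Vale.Agent.Lib.P335.Lit.Defs

/-!
# P335, literal chain: the three perfect matchings of the complete graph on a 4-set
-/

namespace P335
namespace Lit

open Finset Classical

variable {n : ℕ}

/-- four distinct vertices -/
def D4 (a b c e : Fin n) : Prop := a ≠ b ∧ a ≠ c ∧ a ≠ e ∧ b ≠ c ∧ b ≠ e ∧ c ≠ e

theorem isPM_pair {S : Finset (Fin n)} {a b c e : Fin n} (h : D4 a b c e)
    (hS : ∀ v, v ∈ S ↔ v = a ∨ v = b ∨ v = c ∨ v = e) : IsPM S {s(a, b), s(c, e)} := by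
  obtain ⟨hab, hac, hae, hbc, hbe, hce⟩ := h
  refine ⟨?_, ?_⟩
  · intro z hz
    rw [Finset.mem_insert, Finset.mem_singleton] at hz
    rcases hz with rfl | rfl
    · refine ⟨by simpa using hab, ?_⟩
      intro v hv
      rw [Sym2.mem_iff] at hv
      rw [hS]
      tauto
    · refine ⟨by simpa using hce, ?_⟩
      intro v hv
      rw [Sym2.mem_iff] at hv
      rw [hS]
      tauto
  · intro v hv
    rw [hS] at hv
    have key : ∀ z : Sym2 (Fin n), (z ∈ ({s(a, b), s(c, e)} : Finset (Sym2 (Fin n))) ∧ v ∈ z) ↔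
        ((z = s(a, b) ∧ (v = a ∨ v = b)) ∨ (z = s(c, e) ∧ (v = c ∨ v = e))) := by
      intro z
      rw [Finset.mem_insert, Finset.mem_singleton]
      constructor
      · rintro ⟨rfl | rfl, h2⟩
        · exact Or.inl ⟨rfl, Sym2.mem_iff.1 h2⟩
        · exact Or.inr ⟨rfl, Sym2.mem_iff.1 h2⟩
      · rintro (⟨rfl, h2⟩ | ⟨rfl, h2⟩)
        · exact ⟨Or.inl rfl, Sym2.mem_iff.2 h2⟩
        · exact ⟨Or.inr rfl, Sym2.mem_iff.2 h2⟩
    simp only [key]
    rcases hv with rfl | rfl | rfl | rfl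
    · refine ⟨s(v, b), Or.inl ⟨rfl, Or.inl rfl⟩, ?_⟩
      rintro z (⟨rfl, _⟩ | ⟨_, h2 | h2⟩)
      · rfl
      · exact absurd h2 hac
      · exact absurd h2 hae
    · refine ⟨s(a, v), Or.inl ⟨rfl, Or.inr rfl⟩, ?_⟩
      rintro z (⟨rfl, _⟩ | ⟨_, h2 | h2⟩)
      · rfl
      · exact absurd h2 hbc
      · exact absurd h2 hbe
    · refine ⟨s(v, e), Or.inr ⟨rfl, Or.inl rfl⟩, ?_⟩
      rintro z (⟨_, h2 | h2⟩ | ⟨rfl, _⟩)
      · exact absurd h2.symm hac
      · exact absurd h2.symm hbc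
      · rfl
    · refine ⟨s(c, v), Or.inr ⟨rfl, Or.inr rfl⟩, ?_⟩
      rintro z (⟨_, h2 | h2⟩ | ⟨rfl, _⟩)
      · exact absurd h2.symm hae
      · exact absurd h2.symm hbe
      · rfl

/-- a perfect matching containing the edge `ax` is `{ax, yw}` -/
theorem eq_pair_of_mem {S : Finset (Fin n)} {a x y w : Fin n} (h : D4 a x y w)
    (hS : ∀ v, v ∈ S ↔ v = a ∨ v = x ∨ v = y ∨ v = w) {F : Finset (Sym2 (Fin n))}
    (hF : IsPM S F) (hax : s(a, x) ∈ F) : F = {s(a, x), s(y, w)} := by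
  obtain ⟨hax', hay, haw, hxy, hxw, hyw⟩ := h
  obtain ⟨h1, h2⟩ := hF
  have uniq : ∀ v ∈ S, ∀ z z', z ∈ F → v ∈ z → z' ∈ F → v ∈ z' → z = z' := by
    intro v hv z z' hz hvz hz' hvz'
    exact (h2 v hv).unique ⟨hz, hvz⟩ ⟨hz', hvz'⟩
  have haS : a ∈ S := (hS a).2 (Or.inl rfl)
  have hxS : x ∈ S := (hS x).2 (Or.inr (Or.inl rfl))
  have hyS : y ∈ S := (hS y).2 (Or.inr (Or.inr (Or.inl rfl)))
  have hwS : w ∈ S := (hS w).2 (Or.inr (Or.inr (Or.inr rfl)))
  have hyw' : s(y, w) ∈ F := by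
    obtain ⟨z, ⟨hz, hyz⟩, _⟩ := h2 y hyS
    obtain ⟨u, rfl⟩ := Sym2.mem_iff_exists.1 hyz
    have hu := (h1 _ hz).2 u (Sym2.mem_mk_right y u)
    have hd : y ≠ u := by simpa using (h1 _ hz).1
    rw [hS] at hu
    rcases hu with rfl | rfl | rfl | rfl
    · have := uniq u haS _ _ hz (Sym2.mem_mk_right y u) hax (Sym2.mem_mk_left u x)
      have hy : y ∈ s(u, x) := this ▸ Sym2.mem_mk_left y u
      rw [Sym2.mem_iff] at hy
      rcases hy with hy | hy
      · exact absurd hy.symm hay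
      · exact absurd hy.symm hxy
    · have := uniq u hxS _ _ hz (Sym2.mem_mk_right y u) hax (Sym2.mem_mk_right a u)
      have hy : y ∈ s(a, u) := this ▸ Sym2.mem_mk_left y u
      rw [Sym2.mem_iff] at hy
      rcases hy with hy | hy
      · exact absurd hy.symm hay
      · exact absurd hy.symm hxy
    · exact absurd rfl hd
    · exact hz
  ext z
  rw [Finset.mem_insert, Finset.mem_singleton]
  constructor
  · intro hz
    induction z using Sym2.ind with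
    | _ p q =>
      have hp := (h1 _ hz).2 p (Sym2.mem_mk_left p q)
      have hpS := hp
      rw [hS] at hp
      rcases hp with rfl | rfl | rfl | rfl
      · exact Or.inl (uniq p hpS _ _ hz (Sym2.mem_mk_left p q) hax (Sym2.mem_mk_left p x))
      · exact Or.inl (uniq p hpS _ _ hz (Sym2.mem_mk_left p q) hax (Sym2.mem_mk_right a p))
      · exact Or.inr (uniq p hpS _ _ hz (Sym2.mem_mk_left p q) hyw' (Sym2.mem_mk_left p w))
      · exact Or.inr (uniq p hpS _ _ hz (Sym2.mem_mk_left p q) hyw' (Sym2.mem_mk_right y p))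
  · rintro (rfl | rfl)
    · exact hax
    · exact hyw'

/-- classification of the perfect matchings of the complete graph on `{a, b, c, e}` -/
theorem isPM_iff {S : Finset (Fin n)} {a b c e : Fin n} (h : D4 a b c e)
    (hS : ∀ v, v ∈ S ↔ v = a ∨ v = b ∨ v = c ∨ v = e) (F : Finset (Sym2 (Fin n))) :
    IsPM S F ↔ F = {s(a, b), s(c, e)} ∨ F = {s(a, c), s(b, e)} ∨ F = {s(a, e), s(b, c)} := by
  obtain ⟨hab, hac, hae, hbc, hbe, hce⟩ := h
  have hS2 : ∀ v, v ∈ S ↔ v = a ∨ v = c ∨ v = b ∨ v = e := fun v => by rw [hS]; tauto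
  have hS3 : ∀ v, v ∈ S ↔ v = a ∨ v = e ∨ v = b ∨ v = c := fun v => by rw [hS]; tauto
  constructor
  · intro hF
    obtain ⟨z, ⟨hz, haz⟩, _⟩ := hF.2 a ((hS a).2 (Or.inl rfl))
    obtain ⟨u, rfl⟩ := Sym2.mem_iff_exists.1 haz
    have hu := (hF.1 _ hz).2 u (Sym2.mem_mk_right a u)
    have hd : a ≠ u := by simpa using (hF.1 _ hz).1
    rw [hS] at hu
    rcases hu with rfl | rfl | rfl | rfl
    · exact absurd rfl hd
    · exact Or.inl (eq_pair_of_mem ⟨hab, hac, hae, hbc, hbe, hce⟩ hS hF hz)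
    · exact Or.inr (Or.inl (eq_pair_of_mem ⟨hac, hab, hae, hbc.symm, hce, hbe⟩ hS2 hF hz))
    · exact Or.inr (Or.inr (eq_pair_of_mem ⟨hae, hab, hac, hbe.symm, hce.symm, hbc⟩ hS3 hF hz))
  · rintro (rfl | rfl | rfl)
    · exact isPM_pair ⟨hab, hac, hae, hbc, hbe, hce⟩ hS
    · exact isPM_pair ⟨hac, hab, hae, hbc.symm, hce, hbe⟩ hS2
    · exact isPM_pair ⟨hae, hab, hac, hbe.symm, hce.symm, hbc⟩ hS3

theorem exists_D4 {S : Finset (Fin n)} (hS : S.card = 4) :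
    ∃ a b c e, D4 a b c e ∧ ∀ v, v ∈ S ↔ v = a ∨ v = b ∨ v = c ∨ v = e := by
  obtain ⟨a, t, hat, rfl, ht⟩ := Finset.card_eq_succ.1 hS
  obtain ⟨b, c, e, hbc, hbe, hce, rfl⟩ := Finset.card_eq_three.1 ht
  simp only [Finset.mem_insert, Finset.mem_singleton, not_or] at hat
  exact ⟨a, b, c, e, ⟨hat.1, hat.2.1, hat.2.2, hbc, hbe, hce⟩, fun v => by simp⟩

theorem pair_ne {a b c e : Fin n} (h : D4 a b c e) :
    ({s(a, b), s(c, e)} : Finset (Sym2 (Fin n))) ≠ {s(a, c), s(b, e)} := by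
  obtain ⟨hab, hac, hae, hbc, hbe, hce⟩ := h
  intro hEq
  have h1 : s(a, b) ∈ ({s(a, c), s(b, e)} : Finset (Sym2 (Fin n))) := by
    rw [← hEq]; simp
  rw [Finset.mem_insert, Finset.mem_singleton, Sym2.eq_iff, Sym2.eq_iff] at h1
  rcases h1 with (⟨_, h⟩ | ⟨h, _⟩) | (⟨h, _⟩ | ⟨h, _⟩)
  · exact hbc h
  · exact hac h
  · exact hab h
  · exact hae h

theorem card_PM {S : Finset (Fin n)} (hS : S.card = 4) : (PM S).card = 3 := by
  obtain ⟨a, b, c, e, h, hS'⟩ := exists_D4 hS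
  have hEq : PM S = {{s(a, b), s(c, e)}, {s(a, c), s(b, e)}, {s(a, e), s(b, c)}} := by
    ext F
    rw [PM, Finset.mem_filter, isPM_iff h hS']
    simp
  obtain ⟨hab, hac, hae, hbc, hbe, hce⟩ := h
  have n12 := pair_ne (a := a) (b := b) (c := c) (e := e) ⟨hab, hac, hae, hbc, hbe, hce⟩
  have n13 : ({s(a, b), s(c, e)} : Finset (Sym2 (Fin n))) ≠ {s(a, e), s(b, c)} := by
    have := pair_ne (a := a) (b := b) (c := e) (e := c) ⟨hab, hae, hac, hbe, hbc, hce.symm⟩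
    rwa [Sym2.eq_swap (a := e) (b := c)] at this
  have n23 : ({s(a, c), s(b, e)} : Finset (Sym2 (Fin n))) ≠ {s(a, e), s(b, c)} := by
    have := pair_ne (a := a) (b := c) (c := e) (e := b) ⟨hac, hae, hab, hce, hbc.symm, hbe.symm⟩
    rwa [Sym2.eq_swap (a := e) (b := b), Sym2.eq_swap (a := c) (b := b)] at this
  rw [hEq, Finset.card_insert_of_notMem, Finset.card_insert_of_notMem, Finset.card_singleton]
  · simpa using n23
  · simp only [Finset.mem_insert, Finset.mem_singleton, not_or]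
    exact ⟨n12, n13⟩

theorem card_offDiag_PM {S : Finset (Fin n)} (hS : S.card = 4) : (PM S).offDiag.card = 6 := by
  rw [Finset.offDiag_card, card_PM hS]

/-- an ordered pair of distinct perfect matchings of the complete graph on a 4-set `S` is
`({ab, ce}, {ac, be})` for a labelling `S = {a, b, c, e}` -/
theorem exists_labelling {S : Finset (Fin n)} (hS : S.card = 4) {F F' : Finset (Sym2 (Fin n))}
    (hF : IsPM S F) (hF' : IsPM S F') (hne : F ≠ F') :
    ∃ a b c e, D4 a b c e ∧ (∀ v, v ∈ S ↔ v = a ∨ v = b ∨ v = c ∨ v = e) ∧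
      F = {s(a, b), s(c, e)} ∧ F' = {s(a, c), s(b, e)} := by
  obtain ⟨a, b, c, e, h, hS'⟩ := exists_D4 hS
  rw [isPM_iff h hS'] at hF hF'
  obtain ⟨hab, hac, hae, hbc, hbe, hce⟩ := h
  rcases hF with rfl | rfl | rfl <;> rcases hF' with rfl | rfl | rfl
  · exact absurd rfl hne
  · exact ⟨a, b, c, e, ⟨hab, hac, hae, hbc, hbe, hce⟩, hS', rfl, rfl⟩
  · exact ⟨a, b, e, c, ⟨hab, hae, hac, hbe, hbc, hce.symm⟩, fun v => by rw [hS']; tauto,
      by rw [Sym2.eq_swap (a := e) (b := c)], rfl⟩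
  · exact ⟨a, c, b, e, ⟨hac, hab, hae, hbc.symm, hce, hbe⟩, fun v => by rw [hS']; tauto, rfl, rfl⟩
  · exact absurd rfl hne
  · exact ⟨a, c, e, b, ⟨hac, hae, hab, hce, hbc.symm, hbe.symm⟩, fun v => by rw [hS']; tauto,
      by rw [Sym2.eq_swap (a := e) (b := b)], by rw [Sym2.eq_swap (a := c) (b := b)]⟩
  · exact ⟨a, e, b, c, ⟨hae, hab, hac, hbe.symm, hce.symm, hbc⟩, fun v => by rw [hS']; tauto,
      rfl, by rw [Sym2.eq_swap (a := e) (b := c)]⟩
  · exact ⟨a, e, c, b, ⟨hae, hac, hab, hce.symm, hbe.symm, hbc.symm⟩,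
      fun v => by rw [hS']; tauto, by rw [Sym2.eq_swap (a := c) (b := b)],
      by rw [Sym2.eq_swap (a := e) (b := b)]⟩
  · exact absurd rfl hne

end Lit
end P335
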